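import Vale.Agent.P076.R2.H64.Defs

/-!
# P076, thin sets of times: Sobolev in the time (ROW S of helper64)
-/

open MeasureTheory Complex FourierTransform Filter Topology Set
open scoped ENNReal NNReal

namespace Vale.Agent.P076.R2.H64

open Vale.Agent.P076 Vale.Agent.P076.H791

variable {n : ℕ}

namespace H770

lemma cs_sq (f : ℝ → ℝ≥0∞) (hf : Measurable f) (b h : ℝ) :
    (∫⁻ σ in Icc b (b + h), f σ) ^ 2 ≤
      ENNReal.ofReal h * ∫⁻ σ in Icc b (b + h), f σ ^ 2 := by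
  have h1 := ENNReal.lintegral_mul_le_Lp_mul_Lq (volume.restrict (Icc b (b + h)))
    (p := 2) (q := 2) (by rw [Real.holderConjugate_iff]; norm_num) (f := fun _ => 1) (g := f)
    (by fun_prop) hf.aemeasurable
  simp only [Pi.mul_apply, one_mul, ENNReal.one_rpow, lintegral_const, MeasurableSet.univ,
    Measure.restrict_apply, univ_inter, Real.volume_Icc, add_sub_cancel_left] at h1
  have h2 := pow_le_pow_left' h1 2
  refine h2.trans (le_of_eq ?_)
  rw [mul_pow, ← ENNReal.rpow_natCast, ← ENNReal.rpow_mul, ← ENNReal.rpow_natCast,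
    ← ENNReal.rpow_mul]
  norm_num

lemma sq_add_le (a b : ℝ≥0∞) : (a + b) ^ 2 ≤ 2 * a ^ 2 + 2 * b ^ 2 := by
  have := ENNReal.rpow_add_le_mul_rpow_add_rpow a b (p := 2) (by norm_num)
  norm_num at this
  rw [← mul_add]
  exact this

lemma memLp {R : ℝ} {G : E n → ℂ} (hG : Shell R G) : MemLp G 2 volume := by
  refine ⟨hG.meas.aestronglyMeasurable, ?_⟩
  rw [eLpNorm_lt_top_iff_lintegral_rpow_enorm_lt_top (by norm_num) (by norm_num)]
  have h := hG.l2
  simp only [ENNReal.toReal_ofNat, ENNReal.rpow_ofNat]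
  exact lt_top_iff_ne_top.2 h

lemma integrable {R : ℝ} {G : E n → ℂ} (hG : Shell R G) : Integrable G := by
  have hs : Function.support G ⊆ Metric.closedBall 0 (2 * R) := fun η h => by
    rw [mem_closedBall_zero_iff]
    exact (hG.supp η h).2
  rw [← integrableOn_iff_integrable_of_support_subset hs]
  have h1 : MemLp G 2 (volume.restrict (Metric.closedBall (0 : E n) (2 * R))) :=
    (memLp hG).restrict _
  have : IsFiniteMeasure (volume.restrict (Metric.closedBall (0 : E n) (2 * R))) :=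
    ⟨by simpa using (measure_closedBall_lt_top (x := (0 : E n)) (r := 2 * R) (μ := volume))⟩
  exact h1.integrable (by norm_num)

lemma shell_dG {R : ℝ} {G : E n → ℂ} (hG : Shell R G) : Shell R (dG G) where
  meas := by
    have := hG.meas
    unfold dG
    fun_prop
  l2 := by
    have h1 : ∀ η : E n, ‖dG G η‖ₑ ^ 2 ≤
        ENNReal.ofReal (2 * Real.pi * (2 * R) ^ 2) ^ 2 * ‖G η‖ₑ ^ 2 := by
      intro η
      by_cases h0 : G η = 0
      · simp [dG, h0]
      · rw [dG, enorm_mul, mul_pow]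
        gcongr
        rw [← ofReal_norm]
        refine ENNReal.ofReal_le_ofReal ?_
        rw [norm_neg]
        have h2 : ‖(2 * Real.pi * I * ‖η‖ ^ 2 : ℂ)‖ = 2 * Real.pi * ‖η‖ ^ 2 := by
          simp [abs_of_pos Real.pi_pos]
        rw [h2]
        have := (hG.supp η h0).2
        gcongr
    refine ne_top_of_le_ne_top ?_ (lintegral_mono h1)
    rw [lintegral_const_mul' _ _ (by finiteness)]
    exact ENNReal.mul_ne_top (by finiteness) hG.l2
  supp := fun η h => hG.supp η (right_ne_zero_of_mul h)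

lemma hasDerivAt_ph (x : E n) (s : ℝ) (η : E n) :
    HasDerivAt (fun s => ph x s 0 η) (ph x s 0 η * (-(2 * Real.pi * I * ‖η‖ ^ 2))) s := by
  unfold ph
  have h1 : HasDerivAt (fun s : ℝ => ((inner ℝ x η - s * ‖η‖ ^ 2 : ℝ) : ℂ))
      (((0 - 1 * ‖η‖ ^ 2 : ℝ) : ℂ)) s := by
    refine HasDerivAt.ofReal_comp ?_
    exact (hasDerivAt_const s _).sub ((hasDerivAt_id s).mul_const _)
  have h2 := ((h1.const_mul (2 * Real.pi * I)).sub_const ((0 * ‖η‖ ^ 2 : ℝ) : ℂ)).cexp
  refine h2.congr_deriv ?_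
  congr 1
  push_cast
  ring

lemma hasDerivAt_evo {R : ℝ} {G : E n → ℂ} (hG : Shell R G) (x : E n) (s : ℝ) :
    HasDerivAt (fun s => evo G x s 0) (evo (dG G) x s 0) s := by
  have hi := integrable hG
  have hd := integrable (shell_dG hG)
  simp only [evo_eq]
  refine (hasDerivAt_integral_of_dominated_loc_of_deriv_le (bound := fun η => ‖dG G η‖)
    (F := fun s η => ph x s 0 η * G η) (F' := fun s η => ph x s 0 η * dG G η)
    (Metric.ball_mem_nhds s one_pos) (Eventually.of_forall fun t => ?_)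
    (integrable_ph_mul hi x s le_rfl) (integrable_ph_mul hd x s le_rfl).aestronglyMeasurable
    (Eventually.of_forall fun η t _ => ?_) hd.norm (Eventually.of_forall fun η t _ => ?_)).2
  · exact (integrable_ph_mul hi x t le_rfl).aestronglyMeasurable
  · rw [norm_mul]
    exact mul_le_of_le_one_left (norm_nonneg _) (norm_ph_le x t le_rfl η)
  · refine ((hasDerivAt_ph x t η).mul_const (G η)).congr_deriv ?_
    rw [dG, mul_assoc]

lemma le_add {R : ℝ} {G : E n → ℂ} (hG : Shell R G) (x : E n) {b h : ℝ} {s t : ℝ}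
    (hs : s ∈ Icc b (b + h)) (ht : t ∈ Icc b (b + h)) :
    ‖evo G x s 0‖ₑ ≤ ‖evo G x t 0‖ₑ + ∫⁻ σ in Icc b (b + h), ‖evo (dG G) x σ 0‖ₑ := by
  have hc := continuous_evo_s (integrable (shell_dG hG)) x
  have h1 := intervalIntegral.integral_eq_sub_of_hasDerivAt
    (a := t) (b := s) (fun σ _ => hasDerivAt_evo hG x σ) (hc.intervalIntegrable t s)
  have h2 : evo G x s 0 = evo G x t 0 + ∫ σ in t..s, evo (dG G) x σ 0 := by
    rw [h1]
    ring
  rw [h2]
  refine (enorm_add_le _ _).trans ?_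
  gcongr
  rw [← ofReal_norm]
  refine (ENNReal.ofReal_le_ofReal intervalIntegral.norm_integral_le_integral_norm_uIoc).trans ?_
  rw [ofReal_integral_norm_eq_lintegral_enorm]
  · refine lintegral_mono_set ?_
    refine uIoc_subset_uIcc.trans ?_
    exact uIcc_subset_Icc ht hs
  · exact (hc.integrableOn_uIcc).mono_set uIoc_subset_uIcc

end H770

open H770 in
theorem sob {R : ℝ} {G : E n → ℂ} (hG : Shell R G) (x : E n) {b h : ℝ} (h0 : 0 < h) {s : ℝ}
    (hs : s ∈ Icc b (b + h)) :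
    ‖evo G x s 0‖ₑ ^ 2 ≤ 2 * (ENNReal.ofReal h)⁻¹ * (∫⁻ σ in Icc b (b + h), ‖evo G x σ 0‖ₑ ^ 2) +
      2 * ENNReal.ofReal h * ∫⁻ σ in Icc b (b + h), ‖evo (dG G) x σ 0‖ₑ ^ 2 := by
  have hm : Measurable fun σ : ℝ => ‖evo (dG G) x σ 0‖ₑ :=
    (continuous_evo_s (integrable (shell_dG hG)) x).measurable.enorm
  have hm0 : Measurable fun σ : ℝ => ‖evo G x σ 0‖ₑ :=
    (continuous_evo_s (integrable hG) x).measurable.enorm
  set D : ℝ≥0∞ := ∫⁻ σ in Icc b (b + h), ‖evo (dG G) x σ 0‖ₑ ^ 2 with hD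
  set H : ℝ≥0∞ := ENNReal.ofReal h with hH
  have hH0 : H ≠ 0 := by simpa [hH] using h0
  have hHt : H ≠ ⊤ := ENNReal.ofReal_ne_top
  have h1 : ∀ t ∈ Icc b (b + h), ‖evo G x s 0‖ₑ ^ 2 ≤
      2 * ‖evo G x t 0‖ₑ ^ 2 + 2 * (H * D) := by
    intro t ht
    refine (pow_le_pow_left' (le_add hG x hs ht) 2).trans ((sq_add_le _ _).trans ?_)
    gcongr
    exact cs_sq _ hm b h
  have h2 : ∫⁻ _ in Icc b (b + h), ‖evo G x s 0‖ₑ ^ 2 ≤
      ∫⁻ t in Icc b (b + h), (2 * ‖evo G x t 0‖ₑ ^ 2 + 2 * (H * D)) :=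
    setLIntegral_mono' measurableSet_Icc h1
  have hv : volume (Icc b (b + h)) = H := by
    rw [Real.volume_Icc, add_sub_cancel_left]
  rw [lintegral_add_right _ measurable_const, lintegral_const_mul _ (hm0.pow_const 2),
    setLIntegral_const, setLIntegral_const, hv] at h2
  calc ‖evo G x s 0‖ₑ ^ 2 = H⁻¹ * (‖evo G x s 0‖ₑ ^ 2 * H) := by
        rw [mul_comm (‖evo G x s 0‖ₑ ^ 2), ← mul_assoc, ENNReal.inv_mul_cancel hH0 hHt, one_mul]
    _ ≤ H⁻¹ * (2 * (∫⁻ t in Icc b (b + h), ‖evo G x t 0‖ₑ ^ 2) + 2 * (H * D) * H) := by gcongr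
    _ = 2 * H⁻¹ * (∫⁻ t in Icc b (b + h), ‖evo G x t 0‖ₑ ^ 2) + 2 * H * D * (H⁻¹ * H) := by ring
    _ = _ := by rw [ENNReal.inv_mul_cancel hH0 hHt, mul_one]

end Vale.Agent.P076.R2.H64
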